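import Vale.Agent.P253.M5

namespace Vale.Agent.Results.P253.Abstract

open Vale.Agent.P253G
open scoped Manifold

theorem result (n : ℕ) (M : Type) [TopologicalSpace M] [T2Space M] [ConnectedSpace M]
    [ChartedSpace (Cn n) M] [IsManifold 𝓘(ℂ, Cn n) 1 M]
    (g : M → Cn n →L[ℂ] Cn n) (hK : KaehlerNonneg g) (hc : CompleteM g)
    (φ : ℝ → M → M) (hφ : CircleM g φ) (p : M) (hp : ∀ θ, φ θ p = p)
    (a : Fin n → ℕ) (ha : ∀ j, 0 < a j) (L : Cn n ≃L[ℂ] Cn n)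
    (hL : ∀ (θ : ℝ) X, L (dM (Cn n) (φ θ) p X) = rot (fun j => a j) θ (L X))
    (F : M → Cn n) (hF : Hol (Cn n) F) (hi : Function.Injective (dM (Cn n) F p)) :
    BiholoM (Cn n) M :=
  final hK hc hφ hp ha L hL hF hi

end Vale.Agent.Results.P253.Abstract
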