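import Vale.Agent.P253.N3
import Vale.Agent.P253.NDefs2

namespace Vale.Agent.Results.P253.All

open Set Vale.Agent.P253G
open scoped Manifold

theorem result (n : ℕ) :
    (∀ (M : Type) [TopologicalSpace M] [T2Space M] [ConnectedSpace M] [ChartedSpace (Cn n) M]
      [IsManifold 𝓘(ℂ, Cn n) 1 M] (g : M → Cn n →L[ℂ] Cn n), KaehlerNonneg g → CompleteM g →
      ∀ (K : Type) [Group K] [TopologicalSpace K] [IsTopologicalGroup K] [CompactSpace K]
        (φ : K → M → M) (p : M), ActM g φ → (∀ k, φ k p = p) → Unstable g φ p →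
      ∀ F : M → Cn n, Hol (Cn n) F → Function.Injective (dM (Cn n) F p) → BiholoM (Cn n) M) ∧
    ∀ (Ω : Set (Cn n)) (h : Met (Cn n)), GoodDomain Ω h →
      Complexifies Ω h ∧ (Ω.Nonempty → IsTube Ω h → Ω = univ) :=
  ⟨fun _ _ _ _ _ _ _ hK hc _ _ _ _ _ _ _ hφ hp hU _ hF hi => finalN hK hc hφ hp hU hF hi,
    fun _ _ ⟨hΩ, hK, hB, hc⟩ => ⟨fun Φ h1 h2 => ((symmetric hΩ hK hB hc).1 Φ h1 h2).1,
      fun hne ⟨S, hS, hP⟩ => (symmetric hΩ hK hB hc).2.2 S hS hne hP⟩⟩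

end Vale.Agent.Results.P253.All
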