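import Vale.Agent.P253.Bridge2

namespace Vale.Agent.Results.P253.Circle

open Set Vale.Agent.P253G

theorem result (n : ℕ) (Ω : Set (Cn n)) (h : Met (Cn n)) (hΩ : IsOpen Ω) (hK : IsKaehler Ω h)
    (hB : ∀ z ∈ Ω, ∀ X Y, 0 ≤ bisec h z X Y) (hc : IsCompleteOn Ω h) :
    (∀ (φ : ℝ → Cn n → Cn n) (p : Cn n) (a : Fin n → ℕ) (L : Cn n ≃L[ℂ] Cn n),
      IsPreconnected Ω → IsCircleAction Ω h φ → p ∈ Ω → (∀ θ, φ θ p = p) → (∀ j, 0 < a j) →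
      (∀ (θ : ℝ) X, L (fderiv ℂ (φ θ) p X) = rot (fun j => a j) θ (L X)) → Biholo Ω) ∧
    (∀ Φ : ℂ → Cn n → Cn n, IsAction Φ → (∀ θ : ℝ, Preserves Ω h (Φ θ)) →
      (∀ w : ℂ, MapsTo (Φ w) Ω Ω) ∧
      ((∀ z, ∃ p ∈ Ω, p ∈ closure (range fun w => Φ w z)) → Ω = univ)) ∧
    (∀ a : Fin n → ℝ, (∀ j, 0 < a j) → 0 ∈ Ω → (∀ θ : ℝ, Preserves Ω h (rot a θ)) → Ω = univ) ∧
    (∀ S : Set (Cn n), Submodule.span ℂ S = ⊤ → Ω.Nonempty →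
      (∀ b ∈ S, ∀ θ : ℝ, Preserves Ω h fun z => z + (θ : ℂ) • b) → Ω = univ) :=
  ⟨circle hΩ hK hB hc, symmetric hΩ hK hB hc⟩

end Vale.Agent.Results.P253.Circle
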